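import Vale.Agent.Lib.P154.Defs
import Vale.Agent.Lib.P154.FrozenTV

/-!
# P154: reconstruction at the Kesten-Stigum point for `q = 4`, `lam = -1/3`, `d = 9`

For the four-state Potts channel with `lam = -1/3` (proper 4-colourings) on the rooted `d`-ary tree
with `d ≥ 9`, the quantity `a_n` of the problem is at least `3/5` for every `n`.  For `d = 9` one has
`d * lam ^ 2 = 1`, so reconstruction occurs although `d * lam ^ 2 > 1` fails.
-/

namespace Vale.Agent.Results.P154.FourColNine

open Vale.Agent.P154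

theorem result :
    ((9 : ℝ) * (-1 / 3 : ℝ) ^ 2 = 1) ∧
    ∀ d : ℕ, 9 ≤ d → ∀ n : ℕ, 3 / 5 ≤ aSeq 4 d (-1 / 3) n :=
  ⟨by norm_num, fun d hd n => aSeq_colouring_ge d hd n⟩

end Vale.Agent.Results.P154.FourColNine
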